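import Vale.Agent.P205V.Sec

/-!
The covering map `ℝ × ℝ → Circle × Circle`, its local sections and its differential.
-/

namespace Vale.Agent.P205V

open scoped Manifold ContDiff Topology

/-- The covering map of the torus. -/
noncomputable def cov (z : ℝ × ℝ) : Circle × Circle := (Circle.exp z.1, Circle.exp z.2)

/-- A section of the covering map, smooth near `cov z0`. -/
noncomputable def Sec (z0 : ℝ × ℝ) (p : Circle × Circle) : ℝ × ℝ := (sec z0.1 p.1, sec z0.2 p.2)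

lemma cov_Sec (z0 : ℝ × ℝ) (p : Circle × Circle) : cov (Sec z0 p) = p := by
  unfold cov Sec
  simp [exp_sec]

lemma Sec_cov_self (z0 : ℝ × ℝ) : Sec z0 (cov z0) = z0 := by
  unfold cov Sec
  simp [sec_exp_self]

lemma Sec_cov_eventually (z0 : ℝ × ℝ) : ∀ᶠ z in 𝓝 z0, Sec z0 (cov z) = z := by
  have h1 : ∀ᶠ z : ℝ × ℝ in 𝓝 z0, sec z0.1 (Circle.exp z.1) = z.1 :=
    (continuous_fst.tendsto z0).eventually (sec_exp_eventually z0.1)
  have h2 : ∀ᶠ z : ℝ × ℝ in 𝓝 z0, sec z0.2 (Circle.exp z.2) = z.2 :=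
    (continuous_snd.tendsto z0).eventually (sec_exp_eventually z0.2)
  filter_upwards [h1, h2] with z a b
  unfold cov Sec
  exact Prod.ext a b

lemma cov_surjective (p : Circle × Circle) : ∃ z, cov z = p := ⟨Sec 0 p, cov_Sec 0 p⟩

lemma contMDiff_cov : ContMDiff 𝓘(ℝ, ℝ × ℝ) ((𝓡 1).prod (𝓡 1)) ∞ cov := by
  have h1 : ContMDiff 𝓘(ℝ, ℝ × ℝ) (𝓡 1) ∞ (fun z : ℝ × ℝ => Circle.exp z.1) :=
    (contMDiff_circleExp (m := ∞)).comp contDiff_fst.contMDiff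
  have h2 : ContMDiff 𝓘(ℝ, ℝ × ℝ) (𝓡 1) ∞ (fun z : ℝ × ℝ => Circle.exp z.2) :=
    (contMDiff_circleExp (m := ∞)).comp contDiff_snd.contMDiff
  exact h1.prodMk h2

lemma contMDiffAt_Sec (z0 : ℝ × ℝ) :
    ContMDiffAt ((𝓡 1).prod (𝓡 1)) 𝓘(ℝ, ℝ × ℝ) ∞ (Sec z0) (cov z0) := by
  have h1 : ContMDiffAt ((𝓡 1).prod (𝓡 1)) 𝓘(ℝ, ℝ) ∞
      (fun p : Circle × Circle => sec z0.1 p.1) (cov z0) :=
    ContMDiffAt.comp (g := sec z0.1) (f := Prod.fst) (cov z0) (contMDiffAt_sec z0.1)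
      contMDiffAt_fst
  have h2 : ContMDiffAt ((𝓡 1).prod (𝓡 1)) 𝓘(ℝ, ℝ) ∞
      (fun p : Circle × Circle => sec z0.2 p.2) (cov z0) :=
    ContMDiffAt.comp (g := sec z0.2) (f := Prod.snd) (cov z0) (contMDiffAt_sec z0.2)
      contMDiffAt_snd
  exact h1.prodMk_space h2

/-- The differential of a map into the torus, as a map between the model spaces. -/
noncomputable def dmap (f : ℝ × ℝ → Circle × Circle) (z : ℝ × ℝ) :
    (ℝ × ℝ) →L[ℝ] (EuclideanSpace ℝ (Fin 1) × EuclideanSpace ℝ (Fin 1)) :=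
  mfderiv 𝓘(ℝ, ℝ × ℝ) ((𝓡 1).prod (𝓡 1)) f z

/-- The differential of the covering map, as a map between the model spaces. -/
noncomputable def dcov (z : ℝ × ℝ) :
    (ℝ × ℝ) →L[ℝ] (EuclideanSpace ℝ (Fin 1) × EuclideanSpace ℝ (Fin 1)) :=
  dmap cov z

/-- The differential of the local section at the base point. -/
noncomputable def dSec (z0 : ℝ × ℝ) :
    (EuclideanSpace ℝ (Fin 1) × EuclideanSpace ℝ (Fin 1)) →L[ℝ] (ℝ × ℝ) :=
  mfderiv ((𝓡 1).prod (𝓡 1)) 𝓘(ℝ, ℝ × ℝ) (Sec z0) (cov z0)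

lemma mdiffAt_cov (z : ℝ × ℝ) : MDifferentiableAt 𝓘(ℝ, ℝ × ℝ) ((𝓡 1).prod (𝓡 1)) cov z :=
  (contMDiff_cov z).mdifferentiableAt (by simp)

lemma mdiffAt_Sec (z0 : ℝ × ℝ) :
    MDifferentiableAt ((𝓡 1).prod (𝓡 1)) 𝓘(ℝ, ℝ × ℝ) (Sec z0) (cov z0) :=
  (contMDiffAt_Sec z0).mdifferentiableAt (by simp)

lemma dcov_dSec (z0 : ℝ × ℝ) (v : EuclideanSpace ℝ (Fin 1) × EuclideanSpace ℝ (Fin 1)) :
    dcov z0 (dSec z0 v) = v := by
  have hid : cov ∘ Sec z0 = id := by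
    funext p
    exact cov_Sec z0 p
  have hc : MDifferentiableAt 𝓘(ℝ, ℝ × ℝ) ((𝓡 1).prod (𝓡 1)) cov (Sec z0 (cov z0)) :=
    mdiffAt_cov _
  have h := mfderiv_comp (cov z0) hc (mdiffAt_Sec z0)
  rw [hid, mfderiv_id] at h
  have key : ∀ z1, Sec z0 (cov z0) = z1 → dcov z1 (dSec z0 v) = v := by
    intro z1 hz1
    subst hz1
    exact (congrArg (fun L => L v) h).symm
  exact key z0 (Sec_cov_self z0)

lemma dSec_dcov (z0 : ℝ × ℝ) (u : ℝ × ℝ) : dSec z0 (dcov z0 u) = u := by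
  have hid : (Sec z0 ∘ cov) =ᶠ[𝓝 z0] id := Sec_cov_eventually z0
  have h := mfderiv_comp z0 (mdiffAt_Sec z0) (mdiffAt_cov z0)
  rw [hid.mfderiv_eq, mfderiv_id] at h
  exact (congrArg (fun L => L u) h).symm

lemma dcov_injective (z0 : ℝ × ℝ) {u : ℝ × ℝ} (h : dcov z0 u = 0) : u = 0 := by
  have := dSec_dcov z0 u
  rw [h, map_zero] at this
  exact this.symm

lemma cov_add_left (z : ℝ × ℝ) : cov (z + (2 * Real.pi, 0)) = cov z := by
  unfold cov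
  simp [Circle.exp_add]

lemma cov_add_right (z : ℝ × ℝ) : cov (z + (0, 2 * Real.pi)) = cov z := by
  unfold cov
  simp [Circle.exp_add]

lemma dcov_add (c : ℝ × ℝ) (hc : ∀ z, cov (z + c) = cov z) (z : ℝ × ℝ) :
    dcov (z + c) = dcov z := by
  have hfun : cov ∘ (fun y : ℝ × ℝ => y + c) = cov := by
    funext y
    exact hc y
  have ht : MDifferentiableAt 𝓘(ℝ, ℝ × ℝ) 𝓘(ℝ, ℝ × ℝ) (fun y : ℝ × ℝ => y + c) z :=
    (differentiableAt_id.add_const c).mdifferentiableAt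
  have h := mfderiv_comp z (mdiffAt_cov (z + c)) ht
  have hd : mfderiv 𝓘(ℝ, ℝ × ℝ) 𝓘(ℝ, ℝ × ℝ) (fun y : ℝ × ℝ => y + c) z =
      ContinuousLinearMap.id ℝ (ℝ × ℝ) := by
    rw [mfderiv_eq_fderiv]
    exact (by simp : fderiv ℝ (fun y : ℝ × ℝ => y + c) z = ContinuousLinearMap.id ℝ (ℝ × ℝ))
  have h3 : dmap (cov ∘ (fun y : ℝ × ℝ => y + c)) z = dcov z :=
    congrArg (fun f : ℝ × ℝ → Circle × Circle => dmap f z) hfun
  rw [← h3]
  refine ContinuousLinearMap.ext fun u => ?_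
  have h4 := congrArg (fun L => L u) h
  rw [hd] at h4
  exact h4.symm

end Vale.Agent.P205V
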