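import Vale.Agent.P205V.Metric
import Vale.Agent.P205U.MainU

/-!
Every smooth Riemannian metric on the closed manifold `Circle × Circle` is induced by a smooth
map into Euclidean four-space.
-/

namespace Vale.Agent.P205V

open scoped Manifold ContDiff Topology
open Bundle

section Algebra

variable (g : ContMDiffRiemannianMetric ((𝓡 1).prod (𝓡 1)) ∞
    (EuclideanSpace ℝ (Fin 1) × EuclideanSpace ℝ (Fin 1))
    (fun p : Circle × Circle => TangentSpace ((𝓡 1).prod (𝓡 1)) p))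

lemma Q_add (c : ℝ × ℝ) (hc : ∀ z, cov (z + c) = cov z) (u u' z : ℝ × ℝ) :
    Q g u u' (z + c) = Q g u u' z := by
  unfold Q
  rw [dcov_add c hc, hc]

lemma Q_symm (u u' z : ℝ × ℝ) : Q g u u' z = Q g u' u z :=
  g.symm (cov z) (dcov z u) (dcov z u')

lemma Q_pos (u z : ℝ × ℝ) (hu : u ≠ 0) : 0 < Q g u u z :=
  g.pos (cov z) (dcov z u) (fun h => hu (dcov_injective z h))

lemma Q_expand (u u' z : ℝ × ℝ) :
    Q g u u' z = Q g (1, 0) (1, 0) z * (u.1 * u'.1)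
      + Q g (1, 0) (0, 1) z * (u.1 * u'.2 + u.2 * u'.1) + Q g (0, 1) (0, 1) z * (u.2 * u'.2) := by
  have hu : u = u.1 • ((1 : ℝ), (0 : ℝ)) + u.2 • ((0 : ℝ), (1 : ℝ)) := by
    ext <;> simp
  have hu' : u' = u'.1 • ((1 : ℝ), (0 : ℝ)) + u'.2 • ((0 : ℝ), (1 : ℝ)) := by
    ext <;> simp
  have hs : Q g (0, 1) (1, 0) z = Q g (1, 0) (0, 1) z := Q_symm g _ _ z
  unfold Q at hs ⊢
  conv_lhs => rw [hu, hu']
  simp only [map_add, map_smul, add_apply, smul_apply,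
    smul_eq_mul]
  rw [hs]
  ring

end Algebra

section Descent

variable (Ψ : ℝ × ℝ → EuclideanSpace ℝ (Fin 4))
  (h1 : ∀ z, Ψ (z + (2 * Real.pi, 0)) = Ψ z) (h2 : ∀ z, Ψ (z + (0, 2 * Real.pi)) = Ψ z)

include h1 h2 in
lemma eq_of_cov_eq {z z' : ℝ × ℝ} (h : cov z = cov z') : Ψ z = Ψ z' := by
  have ha : Circle.exp z.1 = Circle.exp z'.1 := congrArg Prod.fst h
  have hb : Circle.exp z.2 = Circle.exp z'.2 := congrArg Prod.snd h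
  obtain ⟨m, hm⟩ := Circle.exp_eq_exp.1 ha
  obtain ⟨n, hn⟩ := Circle.exp_eq_exp.1 hb
  have p1 : Function.Periodic Ψ (2 * Real.pi, 0) := h1
  have p2 : Function.Periodic Ψ (0, 2 * Real.pi) := h2
  have hz : z = z' + n • ((0 : ℝ), 2 * Real.pi) + m • (2 * Real.pi, (0 : ℝ)) := by
    ext
    · simp [hm]
    · simp [hn]
  rw [hz, (p1.zsmul m) _, (p2.zsmul n) _]

/-- The map induced on the torus by a doubly periodic map. -/
noncomputable def desc (p : Circle × Circle) : EuclideanSpace ℝ (Fin 4) := Ψ (Sec 0 p)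

include h1 h2 in
lemma desc_eq (z0 : ℝ × ℝ) : desc Ψ = Ψ ∘ Sec z0 := by
  funext p
  exact eq_of_cov_eq Ψ h1 h2 ((cov_Sec 0 p).trans (cov_Sec z0 p).symm)

include h1 h2 in
lemma contMDiff_desc (hΨ : ContDiff ℝ ∞ Ψ) :
    ContMDiff ((𝓡 1).prod (𝓡 1)) 𝓘(ℝ, EuclideanSpace ℝ (Fin 4)) ∞ (desc Ψ) := by
  intro p
  obtain ⟨z0, rfl⟩ := cov_surjective p
  rw [desc_eq Ψ h1 h2 z0]
  exact ContMDiffAt.comp (cov z0) hΨ.contMDiff.contMDiffAt (contMDiffAt_Sec z0)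

include h1 h2 in
lemma mfderiv_desc (hΨ : ContDiff ℝ ∞ Ψ) (z0 : ℝ × ℝ)
    (v : EuclideanSpace ℝ (Fin 1) × EuclideanSpace ℝ (Fin 1)) :
    (mfderiv ((𝓡 1).prod (𝓡 1)) 𝓘(ℝ, EuclideanSpace ℝ (Fin 4)) (desc Ψ) (cov z0) v :
      EuclideanSpace ℝ (Fin 4)) = fderiv ℝ Ψ z0 (dSec z0 v) := by
  rw [desc_eq Ψ h1 h2 z0]
  have hd : ∀ z1, MDifferentiableAt 𝓘(ℝ, ℝ × ℝ) 𝓘(ℝ, EuclideanSpace ℝ (Fin 4)) Ψ z1 := fun z1 =>
    (hΨ.differentiable (by simp) z1).mdifferentiableAt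
  have h := mfderiv_comp (cov z0) (hd (Sec z0 (cov z0))) (mdiffAt_Sec z0)
  rw [h]
  have key : ∀ z1, Sec z0 (cov z0) = z1 →
      (mfderiv 𝓘(ℝ, ℝ × ℝ) 𝓘(ℝ, EuclideanSpace ℝ (Fin 4)) Ψ (Sec z0 (cov z0)) (dSec z0 v) :
        EuclideanSpace ℝ (Fin 4)) = fderiv ℝ Ψ z1 (dSec z0 v) := by
    intro z1 hz1
    subst hz1
    rw [mfderiv_eq_fderiv]
    rfl
  exact key z0 (Sec_cov_self z0)

end Descent

theorem torus_manifold (g : ContMDiffRiemannianMetric ((𝓡 1).prod (𝓡 1)) ∞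
    (EuclideanSpace ℝ (Fin 1) × EuclideanSpace ℝ (Fin 1))
    (fun p : Circle × Circle => TangentSpace ((𝓡 1).prod (𝓡 1)) p)) :
    ∃ F : Circle × Circle → EuclideanSpace ℝ (Fin 4),
      ContMDiff ((𝓡 1).prod (𝓡 1)) 𝓘(ℝ, EuclideanSpace ℝ (Fin 4)) ∞ F ∧
      ∀ (p : Circle × Circle) (v w : TangentSpace ((𝓡 1).prod (𝓡 1)) p),
        @inner ℝ (EuclideanSpace ℝ (Fin 4)) _
          (mfderiv ((𝓡 1).prod (𝓡 1)) 𝓘(ℝ, EuclideanSpace ℝ (Fin 4)) F p v)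
          (mfderiv ((𝓡 1).prod (𝓡 1)) 𝓘(ℝ, EuclideanSpace ℝ (Fin 4)) F p w) = g.inner p v w := by
  have hE : ∀ z, 0 < Q g (1, 0) (1, 0) z := fun z => Q_pos g _ z (by simp)
  have hD : ∀ z, 0 < Q g (1, 0) (1, 0) z * Q g (0, 1) (0, 1) z - Q g (1, 0) (0, 1) z ^ 2 := by
    intro z
    have hne : ((-(Q g (1, 0) (0, 1) z), Q g (1, 0) (1, 0) z) : ℝ × ℝ) ≠ 0 := by
      intro h
      have := congrArg Prod.snd h
      exact (hE z).ne' this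
    have hp := Q_pos g _ z hne
    rw [Q_expand] at hp
    have hp2 : 0 < Q g (1, 0) (1, 0) z *
        (Q g (1, 0) (1, 0) z * Q g (0, 1) (0, 1) z - Q g (1, 0) (0, 1) z ^ 2) := by
      have e : Q g (1, 0) (1, 0) z *
          (Q g (1, 0) (1, 0) z * Q g (0, 1) (0, 1) z - Q g (1, 0) (0, 1) z ^ 2) =
          Q g (1, 0) (1, 0) z * (-(Q g (1, 0) (0, 1) z) * -(Q g (1, 0) (0, 1) z))
          + Q g (1, 0) (0, 1) z * (-(Q g (1, 0) (0, 1) z) * Q g (1, 0) (1, 0) z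
            + Q g (1, 0) (1, 0) z * -(Q g (1, 0) (0, 1) z))
          + Q g (0, 1) (0, 1) z * (Q g (1, 0) (1, 0) z * Q g (1, 0) (1, 0) z) := by ring
      rw [e]
      exact hp
    exact (mul_pos_iff_of_pos_left (hE z)).1 hp2
  obtain ⟨Ψ, sΨ, p1, p2, hiso⟩ := Vale.Agent.P205U.all_tori (2 * Real.pi, 0) (0, 2 * Real.pi)
    (by simp [Real.pi_ne_zero]) (Q g (1, 0) (1, 0)) (Q g (1, 0) (0, 1)) (Q g (0, 1) (0, 1))
    (contDiff_Q g _ _) (contDiff_Q g _ _) (contDiff_Q g _ _)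
    ⟨Q_add g _ cov_add_left _ _, Q_add g _ cov_add_right _ _⟩
    ⟨Q_add g _ cov_add_left _ _, Q_add g _ cov_add_right _ _⟩
    ⟨Q_add g _ cov_add_left _ _, Q_add g _ cov_add_right _ _⟩ hE hD
  refine ⟨desc Ψ, contMDiff_desc Ψ p1 p2 sΨ, ?_⟩
  intro p v w
  obtain ⟨z0, rfl⟩ := cov_surjective p
  have key : ∀ v' w' : EuclideanSpace ℝ (Fin 1) × EuclideanSpace ℝ (Fin 1),
      @inner ℝ (EuclideanSpace ℝ (Fin 4)) _
        (mfderiv ((𝓡 1).prod (𝓡 1)) 𝓘(ℝ, EuclideanSpace ℝ (Fin 4)) (desc Ψ) (cov z0) v')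
        (mfderiv ((𝓡 1).prod (𝓡 1)) 𝓘(ℝ, EuclideanSpace ℝ (Fin 4)) (desc Ψ) (cov z0) w') =
        gn g (cov z0) v' w' := by
    intro v' w'
    rw [mfderiv_desc Ψ p1 p2 sΨ z0 v', mfderiv_desc Ψ p1 p2 sΨ z0 w', hiso, ← Q_expand]
    unfold Q
    rw [dcov_dSec, dcov_dSec]
  exact key v w

end Vale.Agent.P205V
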