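import Vale.Agent.P205V.Cover

/-!
Pull-back of a Riemannian metric on `Circle × Circle` to the plane.
-/

namespace Vale.Agent.P205V

open scoped Manifold ContDiff Topology
open Bundle

variable (g : ContMDiffRiemannianMetric ((𝓡 1).prod (𝓡 1)) ∞
    (EuclideanSpace ℝ (Fin 1) × EuclideanSpace ℝ (Fin 1))
    (fun p : Circle × Circle => TangentSpace ((𝓡 1).prod (𝓡 1)) p))

/-- The metric, read in the model space. -/
noncomputable def gn (p : Circle × Circle) :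
    (EuclideanSpace ℝ (Fin 1) × EuclideanSpace ℝ (Fin 1)) →L[ℝ]
      (EuclideanSpace ℝ (Fin 1) × EuclideanSpace ℝ (Fin 1)) →L[ℝ] ℝ :=
  g.inner p

/-- The pulled back metric on the plane. -/
noncomputable def Q (u u' : ℝ × ℝ) (z : ℝ × ℝ) : ℝ := gn g (cov z) (dcov z u) (dcov z u')

lemma contMDiff_lift (u : ℝ × ℝ) :
    ContMDiff 𝓘(ℝ, ℝ × ℝ)
      (((𝓡 1).prod (𝓡 1)).prod 𝓘(ℝ, EuclideanSpace ℝ (Fin 1) × EuclideanSpace ℝ (Fin 1))) ∞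
      (fun z : ℝ × ℝ => TotalSpace.mk' (EuclideanSpace ℝ (Fin 1) × EuclideanSpace ℝ (Fin 1))
        (E := fun p : Circle × Circle => TangentSpace ((𝓡 1).prod (𝓡 1)) p)
        (cov z) (dcov z u)) := by
  have h1 : ContMDiff 𝓘(ℝ, ℝ × ℝ).tangent ((𝓡 1).prod (𝓡 1)).tangent ∞
      (tangentMap 𝓘(ℝ, ℝ × ℝ) ((𝓡 1).prod (𝓡 1)) cov) :=
    contMDiff_cov.contMDiff_tangentMap (by simp)
  have h2 : ContMDiff 𝓘(ℝ, ℝ × ℝ) 𝓘(ℝ, ℝ × ℝ).tangent ∞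
      (fun z : ℝ × ℝ => (⟨z, u⟩ : TangentBundle 𝓘(ℝ, ℝ × ℝ) (ℝ × ℝ))) :=
    contMDiff_vectorSpace_iff_contDiff.2 contDiff_const
  exact h1.comp h2

lemma contDiff_Q (u u' : ℝ × ℝ) : ContDiff ℝ ∞ (Q g u u') := by
  rw [← contMDiff_iff_contDiff]
  intro z
  have hψ := (g.contMDiff.comp contMDiff_cov) z
  have h3 : ContMDiffAt 𝓘(ℝ, ℝ × ℝ) (((𝓡 1).prod (𝓡 1)).prod 𝓘(ℝ, ℝ)) ∞
      (fun m : ℝ × ℝ => TotalSpace.mk' ℝ (E := Bundle.Trivial (Circle × Circle) ℝ) (cov m)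
        (g.inner (cov m) (dcov m u) (dcov m u'))) z := by
    apply ContMDiffAt.clm_bundle_apply₂
      (F₁ := EuclideanSpace ℝ (Fin 1) × EuclideanSpace ℝ (Fin 1))
      (F₂ := EuclideanSpace ℝ (Fin 1) × EuclideanSpace ℝ (Fin 1))
    · exact hψ
    · exact contMDiff_lift u z
    · exact contMDiff_lift u' z
  simp only [contMDiffAt_totalSpace] at h3
  exact h3.2

end Vale.Agent.P205V
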