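import Mathlib

/-!
Local sections of the covering map `ℝ → Circle`, and of `ℝ × ℝ → Circle × Circle`.
-/

namespace Vale.Agent.P205V

open scoped Manifold ContDiff Topology

/-- A section of `Circle.exp`, smooth near `Circle.exp x0`. -/
noncomputable def sec (x0 : ℝ) (p : Circle) : ℝ :=
  x0 + Complex.arg ((p * (Circle.exp x0)⁻¹ : Circle) : ℂ)

lemma exp_sec (x0 : ℝ) (p : Circle) : Circle.exp (sec x0 p) = p := by
  unfold sec
  rw [Circle.exp_add, Circle.exp_arg]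
  rw [mul_comm p, ← mul_assoc, mul_inv_cancel, one_mul]

lemma sec_exp_self (x0 : ℝ) : sec x0 (Circle.exp x0) = x0 := by
  unfold sec
  simp

lemma sec_exp_eventually (x0 : ℝ) : ∀ᶠ x in 𝓝 x0, sec x0 (Circle.exp x) = x := by
  have h : Set.Ioo (x0 - Real.pi) (x0 + Real.pi) ∈ 𝓝 x0 :=
    Ioo_mem_nhds (by linarith [Real.pi_pos]) (by linarith [Real.pi_pos])
  filter_upwards [h] with x hx
  unfold sec
  have : Circle.exp x * (Circle.exp x0)⁻¹ = Circle.exp (x - x0) := by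
    rw [Circle.exp_sub, div_eq_mul_inv]
  rw [this, Circle.arg_exp (by linarith [hx.1]) (by linarith [hx.2])]
  ring

lemma contDiffAt_arg_one : ContDiffAt ℝ ∞ Complex.arg (1 : ℂ) := by
  have h1 : ContDiffAt ℝ ∞ Complex.log (1 : ℂ) :=
    (Complex.contDiffAt_log (n := ∞) (Complex.one_mem_slitPlane)).restrict_scalars ℝ
  have h2 : ContDiffAt ℝ ∞ (fun z : ℂ => (Complex.log z).im) (1 : ℂ) :=
    Complex.imCLM.contDiff.contDiffAt.comp _ h1
  have h3 : (fun z : ℂ => (Complex.log z).im) = Complex.arg := by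
    funext z
    exact Complex.log_im z
  rw [← h3]
  exact h2

lemma contMDiffAt_sec (x0 : ℝ) :
    ContMDiffAt (𝓡 1) 𝓘(ℝ, ℝ) ∞ (sec x0) (Circle.exp x0) := by
  have h1 : ContMDiff (𝓡 1) (𝓡 1) ∞ (fun p : Circle => p * (Circle.exp x0)⁻¹) :=
    contMDiff_mul_right (I := 𝓡 1) (n := ∞) (a := (Circle.exp x0)⁻¹)
  have h2 : ContMDiff (𝓡 1) 𝓘(ℝ, ℂ) ∞ (fun p : Circle => (p : ℂ)) := by
    have := finrank_real_complex_fact'
    exact contMDiff_coe_sphere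
  have h3 : ContMDiff (𝓡 1) 𝓘(ℝ, ℂ) ∞
      (fun p : Circle => ((p * (Circle.exp x0)⁻¹ : Circle) : ℂ)) := h2.comp h1
  have h4 : ContMDiffAt 𝓘(ℝ, ℂ) 𝓘(ℝ, ℝ) ∞ Complex.arg
      (((Circle.exp x0 * (Circle.exp x0)⁻¹ : Circle) : ℂ)) := by
    rw [mul_inv_cancel]
    exact contDiffAt_arg_one.contMDiffAt
  have h5 : ContMDiffAt (𝓡 1) 𝓘(ℝ, ℝ) ∞
      (fun p : Circle => Complex.arg ((p * (Circle.exp x0)⁻¹ : Circle) : ℂ)) (Circle.exp x0) :=
    h4.comp (Circle.exp x0) h3.contMDiffAt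
  have h6 : ContMDiffAt (𝓡 1) 𝓘(ℝ, ℝ) ∞ (fun _ : Circle => x0) (Circle.exp x0) :=
    contMDiffAt_const
  exact h6.add h5

end Vale.Agent.P205V
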